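import Vale.Agent.P088.H599.J.Defs
import Vale.Agent.P088.H442.CFMet
import Vale.Agent.P088.H924.Orth
import Vale.Agent.P088.H695.CFIso
import Vale.Agent.P088.H72.Norm

/-!
# P088, Theorem J (all `N`): cut-off and dilation of a pair, row U_TOP
-/

open MeasureTheory Set
open scoped ContDiff Matrix

noncomputable section

namespace Vale.Agent.P088.H798

open Vale.Agent.P088.LR Vale.Agent.P088.LR.CF Vale.Agent.P088.LR.H925 Vale.Agent.P088.LR.H158
open Vale.Agent.P088.LR.U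

variable {n N : ℕ}

/-! ### norms -/

theorem cl_smul {F : Type*} [NormedAddCommGroup F] [NormedSpace ℝ F] {k : ℕ} {a b : ℝ}
    {f : V n → ℝ} {g : V n → F} (hf : ContDiff ℝ ∞ f) (hg : ContDiff ℝ ∞ g)
    (h1 : Cl k a f) (h2 : Cl k b g) : Cl k (2 ^ k * (a * b)) (fun x => f x • g x) := by
  have ha : 0 ≤ a := (norm_nonneg _).trans (h1 0 (Nat.zero_le _) 0)
  have hb : 0 ≤ b := (norm_nonneg _).trans (h2 0 (Nat.zero_le _) 0)
  intro l hl x
  refine (norm_iteratedFDeriv_smul_le (hf.of_le (by exact_mod_cast le_top) : ContDiff ℝ l f)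
    (hg.of_le (by exact_mod_cast le_top)) x le_rfl).trans ?_
  calc ∑ i ∈ Finset.range (l + 1), (l.choose i : ℝ) * ‖iteratedFDeriv ℝ i f x‖
        * ‖iteratedFDeriv ℝ (l - i) g x‖
      ≤ ∑ i ∈ Finset.range (l + 1), (l.choose i : ℝ) * (a * b) := by
        refine Finset.sum_le_sum fun i hi => ?_
        rw [Finset.mem_range] at hi
        have h3 := h1 i (by omega) x
        have h4 := h2 (l - i) (by omega) x
        rw [mul_assoc]
        gcongr
    _ = 2 ^ l * (a * b) := by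
        rw [← Finset.sum_mul]
        congr 1
        exact_mod_cast Nat.sum_range_choose l
    _ ≤ 2 ^ k * (a * b) := by
        have : (2 : ℝ) ^ l ≤ 2 ^ k := pow_le_pow_right₀ (by norm_num) hl
        gcongr

theorem cl_csmul {F : Type*} [NormedAddCommGroup F] [NormedSpace ℝ F] {k : ℕ} {e t : ℝ}
    (ht : 0 < t) {g : V n → F} (hg : ContDiff ℝ ∞ g) (h : Cl k e g) :
    Cl k (t * e) (fun x => t • g x) := by
  intro l hl x
  have h1 : iteratedFDeriv ℝ l (fun x => t • g x) x = t • iteratedFDeriv ℝ l g x :=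
    iteratedFDeriv_const_smul_apply' (hg.of_le (by exact_mod_cast le_top)).contDiffAt
  rw [h1, norm_smul, Real.norm_of_nonneg ht.le]
  exact mul_le_mul_of_nonneg_left (h l hl x) ht.le

/-! ### dilation of a connection -/

/-- The dilated connection. -/
def rA (t : ℝ) (A : Cn n N) : Cn n N := fun i y => (t : ℂ) • A i (ps t y)

theorem smU_rA {A : Cn n N} (hA : SmU A) (t : ℝ) : SmU (rA t A) := by
  refine ⟨fun i a b => ?_, fun i x => ?_⟩
  · simp only [rA, Matrix.smul_apply, smul_eq_mul]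
    exact contDiff_const.mul ((hA.1 i a b).comp (contDiff_ps t))
  · simp only [rA]
    rw [Matrix.conjTranspose_smul, hA.2 i]
    simp

theorem smM_rs {s : MF n} (hs : SmM s) (t : ℝ) : SmM (rs t s) :=
  fun i j => (hs i j).comp (contDiff_ps t)

theorem cd_ph {t : ℝ} (ht : t ≠ 0) (A : Cn n N) {U : V n → Fin N → ℂ}
    (hU : ContDiff ℝ ∞ U) (i : Fin n) (x : V n) :
    cd A i (fun x => U (ph t x)) x = ((t⁻¹ : ℝ) : ℂ) • cd (rA t A) i U (ph t x) := by
  unfold cd rA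
  rw [pd_ph i (hU.differentiable (by simp)) t x, ps_ph ht, smul_add, Matrix.smul_mulVec,
    smul_smul]
  have h1 : ((t⁻¹ : ℝ) : ℂ) * (t : ℂ) = 1 := by
    rw [← Complex.ofReal_mul, inv_mul_cancel₀ ht, Complex.ofReal_one]
  rw [h1, one_smul]
  congr 1

theorem cd_csmul (A : Cn n N) (a : ℂ) {u : V n → Fin N → ℂ} (hu : ContDiff ℝ ∞ u)
    (i : Fin n) (x : V n) : cd A i (fun x => a • u x) x = a • cd A i u x := by
  have h := cd_smul A (c := fun _ => a) contDiff_const hu i x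
  rw [h, pd_const, zero_smul, zero_add]

theorem lav_ph {t : ℝ} (ht : t ≠ 0) {s : MF n} (hs : SmM s) {A : Cn n N} (hA : SmU A)
    {U : V n → Fin N → ℂ} (hU : ContDiff ℝ ∞ U) (x : V n) :
    lav s A (fun x => U (ph t x)) x
      = (((t⁻¹ : ℝ) : ℂ) ^ 2) • lav (rs t s) (rA t A) U (ph t x) := by
  unfold lav
  rw [Finset.smul_sum]
  refine Finset.sum_congr rfl fun i _ => ?_
  have hF : ContDiff ℝ ∞ (Vale.Agent.P088.H924.Gf (rs t s) (rA t A) U i) :=
    Vale.Agent.P088.H924.contDiff_Gf (smM_rs hs t) (smU_rA hA t) hU i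
  have h1 : (fun y => ∑ j, (s y i j : ℂ) • cd A j (fun x => U (ph t x)) y)
      = fun y => ((t⁻¹ : ℝ) : ℂ) • Vale.Agent.P088.H924.Gf (rs t s) (rA t A) U i (ph t y) := by
    funext y
    unfold Vale.Agent.P088.H924.Gf
    rw [Finset.smul_sum]
    refine Finset.sum_congr rfl fun j _ => ?_
    rw [cd_ph ht A hU j y, rs, ps_ph ht, smul_comm]
  rw [h1, cd_csmul A _ (u := fun y => Vale.Agent.P088.H924.Gf (rs t s) (rA t A) U i (ph t y))
    (hF.comp (contDiff_ph t)) i x, cd_ph ht A hF i x, smul_smul, ← pow_two]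
  rfl

theorem ea_ph {t : ℝ} (ht : t ≠ 0) {Ω : Set (V n)} (hΩ : MeasurableSet Ω) (s : MF n) (A : Cn n N)
    {U W : V n → Fin N → ℂ} (hU : ContDiff ℝ ∞ U) (hW : ContDiff ℝ ∞ W) :
    ea (ps t ⁻¹' Ω) (rs t s) (rA t A) U W =
      ((t ^ 2 * fac n t : ℝ) : ℂ) * ea Ω s A (fun x => U (ph t x)) (fun x => W (ph t x)) := by
  unfold ea
  have h := int_ps t Ω (fun x => ∑ i, ∑ j, (s x i j : ℂ) *
    (cd A i (fun x => U (ph t x)) x ⬝ᵥ star (cd A j (fun x => W (ph t x)) x))) hΩ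
  rw [Complex.ofReal_mul, mul_assoc, ← Complex.real_smul (x := fac n t), ← h,
    ← integral_const_mul]
  refine integral_congr_ae (Filter.Eventually.of_forall fun y => ?_)
  simp only
  have e1 : ∀ i j, cd A i (fun x => U (ph t x)) (ps t y) ⬝ᵥ
      star (cd A j (fun x => W (ph t x)) (ps t y)) =
      ((t⁻¹ : ℝ) : ℂ) ^ 2 * (cd (rA t A) i U y ⬝ᵥ star (cd (rA t A) j W y)) := by
    intro i j
    rw [cd_ph ht A hU i, cd_ph ht A hW j, ph_ps ht, star_smul, smul_dotProduct, dotProduct_smul]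
    simp only [Complex.star_def, Complex.conj_ofReal, smul_eq_mul]
    ring
  simp only [e1, rs, Finset.mul_sum]
  refine Finset.sum_congr rfl fun i _ => Finset.sum_congr rfl fun j _ => ?_
  have h1 : (((t ^ 2 : ℝ)) : ℂ) * ((t⁻¹ : ℝ) : ℂ) ^ 2 = 1 := by
    rw [← Complex.ofReal_pow, ← Complex.ofReal_mul, ← mul_pow, mul_inv_cancel₀ ht, one_pow,
      Complex.ofReal_one]
  calc (s (ps t y) i j : ℂ) * (cd (rA t A) i U y ⬝ᵥ star (cd (rA t A) j W y))
      = ((((t ^ 2 : ℝ)) : ℂ) * ((t⁻¹ : ℝ) : ℂ) ^ 2) *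
        ((s (ps t y) i j : ℂ) * (cd (rA t A) i U y ⬝ᵥ star (cd (rA t A) j W y))) := by
        rw [h1, one_mul]
    _ = _ := by ring

theorem lav_congr {Ω : Set (V n)} (hΩ : IsOpen Ω) {s s' : MF n} {A A' : Cn n N}
    (hs : ∀ x ∈ Ω, s x = s' x) (hA : ∀ i, ∀ x ∈ Ω, A i x = A' i x) (u : V n → Fin N → ℂ)
    {x : V n} (hx : x ∈ Ω) : lav s A u x = lav s' A' u x := by
  unfold lav
  refine Finset.sum_congr rfl fun i _ => ?_
  have h1 : ∀ y ∈ Ω, (∑ j, (s y i j : ℂ) • cd A j u y) = ∑ j, (s' y i j : ℂ) • cd A' j u y := by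
    intro y hy
    refine Finset.sum_congr rfl fun j _ => ?_
    rw [hs y hy]
    unfold cd
    rw [hA j y hy]
  have h2 : pd i (fun y => ∑ j, (s y i j : ℂ) • cd A j u y) x =
      pd i (fun y => ∑ j, (s' y i j : ℂ) • cd A' j u y) x := pd_congr hΩ h1 hx i
  have h3 := h1 x hx
  have h4 := hA i x hx
  show pd i (fun y => ∑ j, (s y i j : ℂ) • cd A j u y) x +
      A i x *ᵥ (∑ j, (s x i j : ℂ) • cd A j u x) =
    pd i (fun y => ∑ j, (s' y i j : ℂ) • cd A' j u y) x +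
      A' i x *ᵥ (∑ j, (s' x i j : ℂ) • cd A' j u x)
  rw [h2, h3, h4]

theorem ea_congr {Ω : Set (V n)} (hΩ : MeasurableSet Ω) {s s' : MF n} {A A' : Cn n N}
    (hs : ∀ x ∈ Ω, s x = s' x) (hA : ∀ i, ∀ x ∈ Ω, A i x = A' i x) (u v : V n → Fin N → ℂ) :
    ea Ω s A u v = ea Ω s' A' u v := by
  unfold ea
  refine setIntegral_congr_fun hΩ fun x hx => ?_
  refine Finset.sum_congr rfl fun i _ => Finset.sum_congr rfl fun j _ => ?_
  unfold cd
  rw [hs x hx, hA i x hx, hA j x hx]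

theorem orU_congr {Ω : Set (V n)} (hΩ : IsOpen Ω) {s₁ s₁' s₂ s₂' : MF n} {A₁ A₁' A₂ A₂' : Cn n N}
    (hs₁ : ∀ x ∈ Ω, s₁ x = s₁' x) (hA₁ : ∀ i, ∀ x ∈ Ω, A₁ i x = A₁' i x)
    (hs₂ : ∀ x ∈ Ω, s₂ x = s₂' x) (hA₂ : ∀ i, ∀ x ∈ Ω, A₂ i x = A₂' i x)
    (h : OrU Ω s₁ A₁ s₂ A₂) : OrU Ω s₁' A₁' s₂' A₂' := by
  intro u v hu hv h1 h2
  rw [← ea_congr hΩ.measurableSet hs₁ hA₁ u v, ← ea_congr hΩ.measurableSet hs₂ hA₂ u v]
  refine h u v hu hv (fun x hx => ?_) (fun x hx => ?_)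
  · rw [lav_congr hΩ hs₁ hA₁ u hx]; exact h1 x hx
  · rw [lav_congr hΩ hs₂ hA₂ v hx]; exact h2 x hx

theorem orU_ps {t : ℝ} (ht : t ≠ 0) {Ω : Set (V n)} (hΩ : IsOpen Ω) {s₁ s₂ : MF n}
    {A₁ A₂ : Cn n N} (hs₁ : SmM s₁) (hs₂ : SmM s₂) (hA₁ : SmU A₁) (hA₂ : SmU A₂)
    (h : OrU Ω s₁ A₁ s₂ A₂) :
    OrU (ps t ⁻¹' Ω) (rs t s₁) (rA t A₁) (rs t s₂) (rA t A₂) := by
  intro u v hu hv h1 h2
  rw [ea_ph ht hΩ.measurableSet s₁ A₁ hu hv, ea_ph ht hΩ.measurableSet s₂ A₂ hu hv]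
  congr 1
  refine h _ _ (hu.comp (contDiff_ph t)) (hv.comp (contDiff_ph t)) (fun x hx => ?_)
    (fun x hx => ?_)
  · have hy : ph t x ∈ ps t ⁻¹' Ω := by
      show ps t (ph t x) ∈ Ω
      rw [ps_ph ht]; exact hx
    have e := lav_ph ht hs₁ hA₁ hu x
    rw [h1 _ hy, smul_zero] at e
    exact e
  · have hy : ph t x ∈ ps t ⁻¹' Ω := by
      show ps t (ph t x) ∈ Ω
      rw [ps_ph ht]; exact hx
    have e := lav_ph ht hs₂ hA₂ hv x
    rw [h2 _ hy, smul_zero] at e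
    exact e

/-- The cut-off and dilated connection. -/
def cA (t : ℝ) (A : Cn n N) : Cn n N := fun i y => ((chi442 y : ℝ) : ℂ) • rA t A i y

theorem smU_cA {A : Cn n N} (hA : SmU A) (t : ℝ) : SmU (cA t A) := by
  have h := smU_rA hA t
  refine ⟨fun i a b => ?_, fun i x => ?_⟩
  · simp only [cA, Matrix.smul_apply, smul_eq_mul]
    exact (Complex.ofRealCLM.contDiff.comp chi_smooth442).mul (h.1 i a b)
  · simp only [cA]
    rw [Matrix.conjTranspose_smul, h.2 i]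
    simp

theorem cA_cl {A : Cn n N} (hA : SmU A) {k : ℕ} {B e t : ℝ} (ht : 0 < t)
    (hχ : Cl k B (chi442 : V n → ℝ)) {i : Fin n} (h : ClC k e (A i)) :
    ClC k (2 ^ k * (B * (t * (max 1 t ^ k * e)))) (cA t A i) := by
  intro a b
  have h1 : ContDiff ℝ ∞ (fun y => A i (ps t y) a b) := (hA.1 i a b).comp (contDiff_ps t)
  have h2 := cl_ps (hA.1 i a b) ht (h a b)
  have h3 := cl_smul chi_smooth442 (h1.const_smul t) hχ (cl_csmul ht h1 h2)
  have h4 : (fun x => cA t A i x a b) = fun x => chi442 x • (t • A i (ps t x) a b) := by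
    funext x
    simp only [cA, rA, Matrix.smul_apply, smul_eq_mul, Complex.real_smul]
  rw [h4]
  exact h3

/-- Joint rigidity of tensors and connections, domains in the box of radius `R`. -/
def RigBU (n N k : ℕ) (ε R : ℝ) : Prop := ∀ (Ω : Set (V n)), IsOpen Ω →
  interior (closure Ω) = Ω → (∀ x ∈ Ω, ∀ j, |x j| ≤ R) → ∀ (σ : V n → ℝ) (s : MF n),
  ContDiff ℝ ∞ σ → (∀ x, 0 < σ x) → SmM s → (∀ x, (s x).IsSymm) →
  (∀ x ∉ Ω, s x = sc σ x) → Cl k ε (fun x => σ x - 1) →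
  (∀ i j, Cl k ε (fun x => s x i j - (1 : Matrix (Fin n) (Fin n) ℝ) i j)) →
  ∀ A₁ A₂ : Cn n N, SmU A₁ → SmU A₂ → (∀ i, ∀ x ∉ Ω, A₂ i x = A₁ i x) →
  (∀ i, ClC k ε (A₁ i)) → (∀ i, ClC k ε (A₂ i)) → OrU Ω (sc σ) A₁ s A₂ →
  ∃ w K U, Dif Ω w K ∧ (∀ x, psh s w K x = sc σ x) ∧ Gau Ω U (pb w A₁) A₂

theorem rigBU {n N k : ℕ} {ε : ℝ} (hε : 0 < ε) (h : RigU n N k ε) {R : ℝ} (hR : 0 < R) :
    ∃ ε' > 0, RigBU n N k ε' R := by
  obtain ⟨B, hB, hχ⟩ := chi_cl442 n k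
  set t : ℝ := 8 * (n + 1) * R with ht
  have ht0 : 0 < t := by positivity
  have hM : 0 < max 1 t ^ k := by positivity
  refine ⟨min (ε / (2 ^ k * (B * max 1 t ^ k))) (ε / (2 ^ k * (B * (t * max 1 t ^ k)))),
    by positivity, ?_⟩
  intro Ω hΩ hreg hΩR σ s hσ hσ0 hs hsy hoff hσc0 hsc0 A₁ A₂ hA₁ hA₂ hAoff hA₁c hA₂c hor
  have hσc : Cl k (ε / (2 ^ k * (B * max 1 t ^ k))) (fun x => σ x - 1) :=
    Vale.Agent.P088.LR.H72.cl_mono hσc0 (min_le_left _ _)
  have hsc : ∀ i j, Cl k (ε / (2 ^ k * (B * max 1 t ^ k)))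
      (fun x => s x i j - (1 : Matrix (Fin n) (Fin n) ℝ) i j) :=
    fun i j => Vale.Agent.P088.LR.H72.cl_mono (hsc0 i j) (min_le_left _ _)
  set Ω' : Set (V n) := ps t ⁻¹' Ω with hΩ'
  have hO' : IsOpen Ω' := hΩ.preimage (contDiff_ps t).continuous
  have hreg' : interior (closure Ω') = Ω' := by
    have e1 := (hm (n := n) t ht0.ne').preimage_closure Ω
    have e2 := (hm (n := n) t ht0.ne').preimage_interior (closure Ω)
    have e3 : (hm (n := n) t ht0.ne') ⁻¹' Ω = Ω' := rfl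
    rw [e1, e3, hreg, e3] at e2
    exact e2.symm
  have hsm : ∀ y ∈ Ω', ∑ j, (y j - 1 / 2) ^ 2 ≤ 1 / 64 := by
    intro y hy
    have h1 : ∀ j, (y j - 1 / 2) ^ 2 ≤ (1 / (8 * (n + 1))) ^ 2 := by
      intro j
      have h2 := hΩR _ hy j
      simp only [ps, Pi.smul_apply, Pi.sub_apply, smul_eq_mul] at h2
      rw [abs_mul, abs_of_pos ht0, ht] at h2
      have h3 : |y j - 1 / 2| ≤ 1 / (8 * (n + 1)) := by
        rw [le_div_iff₀ (by positivity)]
        have h4 : |y j - 1 / 2| * (8 * (n + 1)) * R ≤ 1 * R := by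
          calc |y j - 1 / 2| * (8 * (n + 1)) * R = 8 * (n + 1) * R * |y j - 1 / 2| := by ring
            _ ≤ R := h2
            _ = 1 * R := by ring
        exact le_of_mul_le_mul_right h4 hR
      rw [← sq_abs]
      exact pow_le_pow_left₀ (abs_nonneg _) h3 2
    calc ∑ j, (y j - 1 / 2) ^ 2 ≤ ∑ _j : Fin n, (1 / (8 * ((n : ℝ) + 1))) ^ 2 :=
          Finset.sum_le_sum fun j _ => h1 j
      _ = n * (1 / (8 * ((n : ℝ) + 1))) ^ 2 := by simp
      _ ≤ 1 / 64 := by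
          have hn : (0 : ℝ) ≤ n := Nat.cast_nonneg n
          rw [div_pow, one_pow, mul_one_div, div_le_div_iff₀ (by positivity) (by norm_num)]
          nlinarith
  have hb' : Ω' ⊆ bls n := fun y hy => hsm y hy
  have hχ1 : ∀ y ∈ Ω', chi442 y = 1 := fun y hy => chi_one442 (hsm y hy)
  -- the cut-off data
  set σ' : V n → ℝ := fun y => 1 + chi442 y * (σ (ps t y) - 1) with hσ'
  set s' : MF n := fun y => 1 + chi442 y • (s (ps t y) - 1) with hs'
  have hσps : ContDiff ℝ ∞ (fun y => σ (ps t y) - 1) :=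
    (hσ.comp (contDiff_ps t)).sub contDiff_const
  have hσ's : ContDiff ℝ ∞ σ' := contDiff_const.add (chi_smooth442.mul hσps)
  have hσ'0 : ∀ y, 0 < σ' y := by
    intro y
    have h1 := chi_nonneg442 y
    have h2 := chi_le_one442 y
    have h3 := hσ0 (ps t y)
    show 0 < 1 + chi442 y * (σ (ps t y) - 1)
    have h4 : 1 + chi442 y * (σ (ps t y) - 1) = (1 - chi442 y) + chi442 y * σ (ps t y) := by ring
    rw [h4]
    rcases h2.lt_or_eq with h5 | h5
    · have := mul_nonneg h1 h3.le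
      linarith
    · rw [h5]; linarith
  have hσ'1 : ∀ y ∉ bal n, σ' y = 1 := by
    intro y hy
    show 1 + chi442 y * (σ (ps t y) - 1) = 1
    rw [chi_zero442 hy]; ring
  have hs'e : ∀ y i j, s' y i j - (1 : Matrix (Fin n) (Fin n) ℝ) i j
      = chi442 y * (s (ps t y) i j - (1 : Matrix (Fin n) (Fin n) ℝ) i j) := by
    intro y i j
    show (1 + chi442 y • (s (ps t y) - 1)) i j - _ = _
    rw [Matrix.add_apply, Matrix.smul_apply, Matrix.sub_apply, smul_eq_mul]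
    ring
  have hs's : SmM s' := by
    intro i j
    have h1 : (fun y => s' y i j) = fun y => (1 : Matrix (Fin n) (Fin n) ℝ) i j
        + chi442 y * (s (ps t y) i j - (1 : Matrix (Fin n) (Fin n) ℝ) i j) := by
      funext y
      have := hs'e y i j
      linarith
    rw [h1]
    exact contDiff_const.add (chi_smooth442.mul
      (((hs i j).comp (contDiff_ps t)).sub contDiff_const))
  have hs'y : ∀ y, (s' y).IsSymm := by
    intro y
    show (1 + chi442 y • (s (ps t y) - 1)).IsSymm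
    rw [Matrix.IsSymm, Matrix.transpose_add, Matrix.transpose_smul, Matrix.transpose_sub,
      Matrix.transpose_one, (hsy _).eq]
  have hs'off : ∀ y ∉ Ω', s' y = sc σ' y := by
    intro y hy
    have h1 : s (ps t y) = sc σ (ps t y) := hoff _ hy
    show 1 + chi442 y • (s (ps t y) - 1) = (1 + chi442 y * (σ (ps t y) - 1)) • 1
    rw [h1]
    unfold sc
    rw [add_smul, one_smul, mul_smul, sub_smul, one_smul]
  have hs'on : ∀ y ∈ Ω', s' y = rs t s y := by
    intro y hy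
    show 1 + chi442 y • (s (ps t y) - 1) = s (ps t y)
    rw [hχ1 y hy, one_smul]
    abel
  have hσ'on : ∀ y ∈ Ω', sc σ' y = rs t (sc σ) y := by
    intro y hy
    show (1 + chi442 y * (σ (ps t y) - 1)) • (1 : Matrix (Fin n) (Fin n) ℝ) = σ (ps t y) • 1
    rw [hχ1 y hy]
    congr 1
    ring
  have hfin : 2 ^ k * (B * (max 1 t ^ k * (ε / (2 ^ k * (B * max 1 t ^ k))))) = ε := by
    field_simp
  have hfin2 : 2 ^ k * (B * (t * (max 1 t ^ k * (ε / (2 ^ k * (B * (t * max 1 t ^ k))))))) = ε := by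
    field_simp
  have hσ'c : Cl k ε (fun y => σ' y - 1) := by
    have h1 := cl_mul442 chi_smooth442 hσps hχ
      (cl_ps (hσ.sub contDiff_const) ht0 hσc)
    rw [hfin] at h1
    have h2 : (fun y => σ' y - 1) = fun y => chi442 y * (σ (ps t y) - 1) := by
      funext y
      show 1 + chi442 y * (σ (ps t y) - 1) - 1 = _
      ring
    rw [h2]; exact h1
  have hs'c : ∀ i j, Cl k ε (fun y => s' y i j - (1 : Matrix (Fin n) (Fin n) ℝ) i j) := by
    intro i j
    have h1 := cl_mul442 chi_smooth442 (((hs i j).comp (contDiff_ps t)).sub contDiff_const) hχ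
      (cl_ps ((hs i j).sub contDiff_const) ht0 (hsc i j))
    rw [hfin] at h1
    have h2 : (fun y => s' y i j - (1 : Matrix (Fin n) (Fin n) ℝ) i j)
        = fun y => chi442 y * (s (ps t y) i j - (1 : Matrix (Fin n) (Fin n) ℝ) i j) :=
      funext fun y => hs'e y i j
    rw [h2]; exact h1
  -- the connections
  have hcl : ∀ A : Cn n N, SmU A → (∀ i, ClC k (min (ε / (2 ^ k * (B * max 1 t ^ k)))
      (ε / (2 ^ k * (B * (t * max 1 t ^ k))))) (A i)) → ∀ i, ClC k ε (cA t A i) := by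
    intro A hA hc i
    have h1 : ClC k (ε / (2 ^ k * (B * (t * max 1 t ^ k)))) (A i) :=
      fun a b => Vale.Agent.P088.LR.H72.cl_mono (hc i a b) (min_le_right _ _)
    have h2 := cA_cl hA ht0 hχ h1
    rwa [hfin2] at h2
  have hcAon : ∀ A : Cn n N, ∀ i, ∀ y ∈ Ω', cA t A i y = rA t A i y := by
    intro A i y hy
    show ((chi442 y : ℝ) : ℂ) • rA t A i y = _
    rw [hχ1 y hy, Complex.ofReal_one, one_smul]
  have hcAoff : ∀ i, ∀ y ∉ Ω', cA t A₂ i y = cA t A₁ i y := by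
    intro i y hy
    show ((chi442 y : ℝ) : ℂ) • ((t : ℂ) • A₂ i (ps t y)) =
      ((chi442 y : ℝ) : ℂ) • ((t : ℂ) • A₁ i (ps t y))
    rw [hAoff i _ hy]
  have hcA0 : ∀ i, ∀ y ∉ bal n, cA t A₁ i y = 0 := by
    intro i y hy
    show ((chi442 y : ℝ) : ℂ) • rA t A₁ i y = 0
    rw [chi_zero442 hy, Complex.ofReal_zero, zero_smul]
  have hor' : OrU Ω' (sc σ') (cA t A₁) s' (cA t A₂) :=
    orU_congr hO' (fun y hy => (hσ'on y hy).symm) (fun i y hy => (hcAon A₁ i y hy).symm)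
      (fun y hy => (hs'on y hy).symm) (fun i y hy => (hcAon A₂ i y hy).symm)
      (orU_ps ht0.ne' hΩ (smM_sc442 hσ) hs hA₁ hA₂ hor)
  obtain ⟨w, K, hD, hpsh, U', hU's, hU'u, hU'1, hU'g⟩ := h Ω' hO' hreg' hb' σ' s' hσ's hσ'0 hσ'1
    hs's hs'y hs'off hσ'c hs'c (cA t A₁) (cA t A₂) (smU_cA hA₁ t) (smU_cA hA₂ t) hcA0 hcAoff
    (hcl A₁ hA₁ hA₁c) (hcl A₂ hA₂ hA₂c) hor'
  -- back to the original tensors
  have hkey : ∀ y, psh (rs t s) w K y = rs t (sc σ) y := by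
    intro y
    by_cases hy : y ∈ Ω'
    · have hKy : K y ∈ Ω' := H158.K_mem hD hy
      have h1 := hpsh y
      unfold psh at h1 ⊢
      rw [hs'on _ hKy, hσ'on y hy] at h1
      exact h1
    · have hKy : K y = y := H158.K_off hD hy
      unfold psh
      rw [hKy, H158.jm_off hD hreg' hy]
      simp only [Matrix.det_one, inv_one, one_smul, Matrix.transpose_one, Matrix.one_mul,
        Matrix.mul_one]
      exact hoff _ hy
  have ew : ∀ x, x + t • w (ph t x) = ps t (ph t x + w (ph t x)) := by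
    intro x
    conv_lhs => rw [← ps_ph ht0.ne' x]
    rw [ph_ps ht0.ne']
    simp only [ps, smul_sub, smul_add]
    abel
  have ejm : ∀ x, jm (fun x => t • w (ph t x)) x = jm w (ph t x) := by
    intro x
    funext i j
    simp only [jm]
    have hd : Differentiable ℝ (fun y => t • w y) :=
      (hD.sw.differentiable (by simp)).const_smul t
    have e := pd_ph j hd t x
    have e' : pd j (fun y => t • w y) (ph t x) = t • pd j w (ph t x) := by
      unfold pd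
      rw [fderiv_fun_const_smul (hD.sw.differentiable (by simp) _)]
      rfl
    rw [e, e', smul_smul, inv_mul_cancel₀ ht0.ne', one_smul]
  have hmem : ∀ x, ph t x ∈ Ω' ↔ x ∈ Ω := by
    intro x
    show ps t (ph t x) ∈ Ω ↔ x ∈ Ω
    rw [ps_ph ht0.ne']
  refine ⟨fun x => t • w (ph t x), fun x => ps t (K (ph t x)), fun x => U' (ph t x),
    ⟨?_, ?_, ?_, ?_, ?_, ?_⟩, ?_, ⟨?_, ?_, ?_⟩, ?_⟩
  · exact (hD.sw.comp (contDiff_ph t)).const_smul t
  · exact (contDiff_ps t).comp (hD.sK.comp (contDiff_ph t))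
  · intro x
    show ps t (K (ph t (x + t • w (ph t x)))) = x
    rw [ew, ph_ps ht0.ne', hD.l, ps_ph ht0.ne']
  · intro y
    show ps t (K (ph t y)) + t • w (ph t (ps t (K (ph t y)))) = y
    rw [ew, ph_ps ht0.ne', hD.r, ps_ph ht0.ne']
  · intro x hx
    show t • w (ph t x) = 0
    rw [hD.z, smul_zero]
    exact fun h => hx ((hmem x).1 h)
  · intro x
    rw [ejm]
    exact hD.dp _
  · intro x
    have h1 := hkey (ph t x)
    unfold psh at h1 ⊢
    rw [ejm]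
    show (jm w (ph t (ps t (K (ph t x))))).det⁻¹ • (jm w (ph t (ps t (K (ph t x))))
      * s (ps t (K (ph t x))) * (jm w (ph t (ps t (K (ph t x)))))ᵀ) = sc σ x
    rw [ph_ps ht0.ne']
    simp only [rs, ps_ph ht0.ne'] at h1
    exact h1
  · intro a b
    exact (hU's a b).comp (contDiff_ph t)
  · intro x _
    exact hU'u _
  · intro i x hx
    have hy : ph t x ∈ Ω' := (hmem x).2 hx
    have h1 := hU'g i (ph t x)
    have h2 : cA t A₂ i (ph t x) = (t : ℂ) • A₂ i x := by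
      rw [hcAon A₂ i _ hy]
      show (t : ℂ) • A₂ i (ps t (ph t x)) = _
      rw [ps_ph ht0.ne']
    have h3 : pb w (cA t A₁) i (ph t x) = (t : ℂ) • pb (fun x => t • w (ph t x)) A₁ i x := by
      unfold pb
      rw [Finset.smul_sum]
      refine Finset.sum_congr rfl fun j _ => ?_
      rw [hcAon A₁ j _ (H158.H_mem hD hy), ejm, ew, smul_comm]
      rfl
    have h4 : pdm i U' (ph t x) = (t : ℂ) • pdm i (fun x => U' (ph t x)) x := by
      ext a b
      simp only [pdm, Matrix.of_apply, Matrix.smul_apply, smul_eq_mul]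
      rw [pd_ph i ((hU's a b).differentiable (by simp)) t x, Complex.real_smul, ← mul_assoc,
        ← Complex.ofReal_mul, mul_inv_cancel₀ ht0.ne', Complex.ofReal_one, one_mul]
    rw [h2, h3, h4, Matrix.mul_smul, Matrix.smul_mul, Matrix.mul_smul, ← smul_add] at h1
    exact smul_right_injective _ (by exact_mod_cast ht0.ne' : (t : ℂ) ≠ 0) h1
  · intro x hx
    rw [hΩ.frontier_eq] at hx
    exact hU'1 _ fun h => hx.2 ((hmem x).1 h)

/-- Row U_ORT. -/
theorem ort : RowORT := by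
  intro n N Ω hΩ hb g₁ g₂ hg₁ hg₂ hp₁ hp₂ A₁ A₂ hA₁ hA₂ hD u v hu hv hu0 hv0
  exact Vale.Agent.P088.H924.orthN hΩ hb hg₁ hg₂ hp₁ hp₂ hA₁ hA₂ hD hu hv hu0 hv0

/-- **Row U_TOP.** -/
theorem top : RowTOPU := by
  intro n N hn _ hRig
  obtain ⟨k, ε, hε, hrig⟩ := hRig
  refine ⟨k, fun R hR0 => ?_⟩
  obtain ⟨ε', hε', hB⟩ := rigBU hε hrig hR0
  obtain ⟨δ0, hδ0, hnorm0⟩ := Vale.Agent.P088.LR.H72.norm0 n k ε' hε'
  obtain ⟨δs, hδs, hsml⟩ := small_sgm442 n k hε'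
  refine ⟨min (min δ0 δs) ε', lt_min (lt_min hδ0 hδs) hε', ?_⟩
  intro Ω hΩ hreg hΩb c g hc hcpos hg hpos hoff hccl hgcl A₁ A₂ hA₁ hA₂ hAoff hA₁c hA₂c hsd
  have hs1e : sg (sc c) = sc (sgm442 c) := sg_sc442 hcpos
  have hoff2 : ∀ x ∉ Ω, sg g x = sc (sgm442 c) x := by
    intro x hx
    rw [← hs1e]
    unfold sg
    rw [hoff x hx]
  have hbd : Bornology.IsBounded Ω := by
    refine (Metric.isBounded_Icc (fun _ : Fin n => -R) (fun _ => R)).subset fun x hx => ?_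
    have h1 := fun j => abs_le.1 (hΩb hx j)
    exact ⟨fun j => (h1 j).1, fun j => (h1 j).2⟩
  have hst : OrU Ω (sg (sc c)) A₁ (sg g) A₂ :=
    ort Ω hΩ hbd (sc c) g (smM_sc442 hc) hg (posDef_sc442 hcpos) hpos A₁ A₂ hA₁ hA₂ hsd
  rw [hs1e] at hst
  obtain ⟨w, K, U, hD, hone, hU⟩ := hB Ω hΩ hreg (fun x hx => hΩb hx) (sgm442 c) (sg g)
    (sgm_smooth442 hc hcpos) (sgm_pos442 hcpos) (H442.smM_sg442 hg hpos)
    (H442.symm_sg442 hpos) hoff2
    (hsml c hc (Vale.Agent.P088.LR.H72.cl_mono hccl ((min_le_left _ _).trans (min_le_right _ _))))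
    (hnorm0 g hg fun i j =>
      Vale.Agent.P088.LR.H72.cl_mono (hgcl i j) ((min_le_left _ _).trans (min_le_left _ _)))
    A₁ A₂ hA₁ hA₂ hAoff
    (fun i a b => Vale.Agent.P088.LR.H72.cl_mono (hA₁c i a b) (min_le_right _ _))
    (fun i a b => Vale.Agent.P088.LR.H72.cl_mono (hA₂c i a b) (min_le_right _ _)) hst
  refine ⟨w, K, U, hD, Vale.Agent.P088.H695.is2 hn Ω c g hcpos hpos w K hD fun x => ?_, hU⟩
  rw [hone x, hs1e]

end Vale.Agent.P088.H798
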