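import Vale.Agent.P088.H198.K.Defs
import Vale.Agent.P088.H798.UTop
import Vale.Agent.P088.H607.XSc

/-!
# P088, joint uniqueness on a smooth domain without condition at the boundary: scaling, cut-off and
passage from tensors to metrics (row K_TOP)
-/

open MeasureTheory Set
open scoped ContDiff Matrix

noncomputable section

namespace Vale.Agent.P088.H798

open Vale.Agent.P088.LR Vale.Agent.P088.LR.CF Vale.Agent.P088.LR.B Vale.Agent.P088.LR.H925
  Vale.Agent.P088.LR.H158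
open Vale.Agent.P088.LR.U
open Vale.Agent.P088.LR.K (Dat Sma)

variable {n N : ℕ}

/-! ### a cut-off supported in the ball of radius `1/8` -/

/-- The cut-off. -/
def chs (y : V n) : ℝ := chi442 (fun j => 2 * y j - 1 / 2)

theorem chs_smooth : ContDiff ℝ ∞ (chs : V n → ℝ) := by
  refine chi_smooth442.comp ?_
  fun_prop

theorem chs_nonneg (y : V n) : 0 ≤ chs y := chi_nonneg442 _

theorem chs_le_one (y : V n) : chs y ≤ 1 := chi_le_one442 _

theorem sum_chs (y : V n) :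
    ∑ j, ((2 * y j - 1 / 2) - 1 / 2) ^ 2 = 4 * ∑ j, (y j - 1 / 2) ^ 2 := by
  rw [Finset.mul_sum]
  refine Finset.sum_congr rfl fun j _ => ?_
  ring

theorem chs_one {y : V n} (h : ∑ j, (y j - 1 / 2) ^ 2 ≤ 1 / 256) : chs y = 1 := by
  refine chi_one442 ?_
  rw [sum_chs]
  linarith

theorem chs_zero {y : V n} (h : y ∉ bls n) : chs y = 0 := by
  refine chi_zero442 fun h' => h ?_
  have h1 : ∑ j, ((2 * y j - 1 / 2) - 1 / 2) ^ 2 ≤ 1 / 16 := h'
  rw [sum_chs] at h1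
  show ∑ j, (y j - 1 / 2) ^ 2 ≤ 1 / 64
  linarith

/-- Normalisation of the domain. -/
theorem exists_dom_bls {ρ : V n → ℝ} (h : SDom ρ) : ∃ t : ℝ, 1 ≤ t ∧ ∃ ρ' : V n → ℝ, Dom ρ' ∧
    (∀ y ∉ bls n, ρ' y = -1) ∧ (∀ y, 0 < ρ' y ↔ 0 < ρ (ps t y)) ∧
    (∀ y, ρ' y = 0 ↔ ρ (ps t y) = 0) := by
  obtain ⟨R, hR⟩ := h.bd.subset_closedBall (0 : V n)
  set R' : ℝ := max R 1 with hR'
  have hR1 : 1 ≤ R' := le_max_right _ _
  set t : ℝ := 32 * ((n : ℝ) + 1) * R' with ht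
  have hn0 : (0 : ℝ) ≤ n := Nat.cast_nonneg n
  have ht0 : 0 < t := by positivity
  have ht1 : 1 ≤ t := by
    rw [ht]
    nlinarith [mul_nonneg hn0 (zero_le_one.trans hR1)]
  have hin : ∀ y, 0 ≤ ρ (ps t y) → ∑ j, (y j - 1 / 2) ^ 2 < 1 / 256 := by
    intro y hy
    have h1 : ps t y ∈ Metric.closedBall (0 : V n) R := hR hy
    rw [mem_closedBall_zero_iff] at h1
    have h2 : ∀ j, (y j - 1 / 2) ^ 2 ≤ (1 / (32 * ((n : ℝ) + 1))) ^ 2 := by
      intro j
      have h3 : |t * (y j - 1 / 2)| ≤ R' := by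
        have h4 : ‖ps t y j‖ ≤ ‖ps t y‖ := norm_le_pi_norm _ j
        have h5 : ps t y j = t * (y j - 1 / 2) := rfl
        rw [h5, Real.norm_eq_abs] at h4
        exact h4.trans (h1.trans (le_max_left _ _))
      rw [abs_mul, abs_of_pos ht0, ht] at h3
      have h6 : |y j - 1 / 2| ≤ 1 / (32 * ((n : ℝ) + 1)) := by
        rw [le_div_iff₀ (by positivity)]
        have h7 : |y j - 1 / 2| * (32 * ((n : ℝ) + 1)) * R' ≤ 1 * R' := by
          calc |y j - 1 / 2| * (32 * ((n : ℝ) + 1)) * R'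
              = 32 * ((n : ℝ) + 1) * R' * |y j - 1 / 2| := by ring
            _ ≤ R' := h3
            _ = 1 * R' := by ring
        exact le_of_mul_le_mul_right h7 (by linarith)
      rw [← sq_abs]
      exact pow_le_pow_left₀ (abs_nonneg _) h6 2
    calc ∑ j, (y j - 1 / 2) ^ 2 ≤ ∑ _j : Fin n, (1 / (32 * ((n : ℝ) + 1))) ^ 2 :=
          Finset.sum_le_sum fun j _ => h2 j
      _ = n * (1 / (32 * ((n : ℝ) + 1))) ^ 2 := by simp
      _ < 1 / 256 := by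
          rw [div_pow, one_pow, mul_one_div, div_lt_div_iff₀ (by positivity) (by norm_num)]
          nlinarith
  have hUo : IsOpen {y : V n | ∑ j, (y j - 1 / 2) ^ 2 < 1 / 256} := by
    refine isOpen_lt ?_ continuous_const
    fun_prop
  have hχ1 : ∀ y, 0 ≤ ρ (ps t y) → chs y = 1 := fun y hy => chs_one (hin y hy).le
  let ρ' : V n → ℝ := fun y => chs y * ρ (ps t y) - (1 - chs y)
  have hA : ∀ y, 0 ≤ ρ (ps t y) → ρ' y = ρ (ps t y) := by
    intro y hy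
    show chs y * ρ (ps t y) - (1 - chs y) = _
    rw [hχ1 y hy]; ring
  have hB : ∀ y, ρ (ps t y) < 0 → ρ' y < 0 := by
    intro y hy
    show chs y * ρ (ps t y) - (1 - chs y) < 0
    rcases (chs_le_one y).lt_or_eq with h1 | h1
    · have : chs y * ρ (ps t y) ≤ 0 := mul_nonpos_of_nonneg_of_nonpos (chs_nonneg y) hy.le
      linarith
    · rw [h1]; linarith
  have hz : ∀ y, ρ' y = 0 ↔ ρ (ps t y) = 0 := by
    intro y
    rcases lt_or_ge (ρ (ps t y)) 0 with h1 | h1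
    · exact ⟨fun h2 => absurd h2 (hB y h1).ne, fun h2 => absurd h2 h1.ne⟩
    · rw [hA y h1]
  have hpos : ∀ y, 0 < ρ' y ↔ 0 < ρ (ps t y) := by
    intro y
    rcases lt_or_ge (ρ (ps t y)) 0 with h1 | h1
    · exact ⟨fun h2 => absurd h2 (hB y h1).le.not_gt, fun h2 => absurd h2 h1.le.not_gt⟩
    · rw [hA y h1]
  have hsm : ContDiff ℝ ∞ ρ' :=
    (chs_smooth.mul (h.sm.comp (contDiff_ps t))).sub (contDiff_const.sub chs_smooth)
  have hoff : ∀ y ∉ bls n, ρ' y = -1 := by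
    intro y hy
    show chs y * ρ (ps t y) - (1 - chs y) = -1
    rw [chs_zero hy]; ring
  have hbc : ∀ y : V n, y ∉ core n → y ∉ bls n := by
    intro y hy h'
    refine hy (bal_subset_core442 ?_)
    have h1 : ∑ j, (y j - 1 / 2) ^ 2 ≤ 1 / 64 := h'
    show ∑ j, (y j - 1 / 2) ^ 2 ≤ 1 / 16
    linarith
  refine ⟨t, ht1, ρ', ⟨hsm, fun y hy => hoff y (hbc y hy), ?_⟩, hoff, hpos, hz⟩
  intro y hy
  have h0 : ρ (ps t y) = 0 := (hz y).1 hy
  have h1 : y ∈ {y : V n | ∑ j, (y j - 1 / 2) ^ 2 < 1 / 256} := hin y h0.ge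
  have h2 : ρ' =ᶠ[nhds y] fun y => ρ (ps t y) := by
    filter_upwards [hUo.mem_nhds h1] with z hz'
    show chs z * ρ (ps t z) - (1 - chs z) = _
    rw [chs_one (le_of_lt hz')]; ring
  rw [h2.fderiv_eq]
  have h6 : HasFDerivAt (fun y => ρ (ps t y))
      ((fderiv ℝ ρ (ps t y)).comp (t • ContinuousLinearMap.id ℝ (V n))) y :=
    HasFDerivAt.comp y (h.sm.differentiable (by simp) _).hasFDerivAt (fd_ps t y)
  rw [h6.fderiv]
  intro h7
  apply h.nz _ h0
  ext v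
  have h8 := congrArg (fun T : V n →L[ℝ] ℝ => T v) h7
  simp only [ContinuousLinearMap.comp_apply, smul_apply,
    ContinuousLinearMap.id_apply, map_smul, smul_eq_mul, zero_apply] at h8
  rcases mul_eq_zero.1 h8 with h9 | h9
  · exact absurd h9 ht0.ne'
  · rw [h9]; rfl

/-! ### the data -/

theorem dat_congr {Ω : Set (V n)} (hΩ : IsOpen Ω) {s₁ s₁' s₂ s₂' : MF n} {A₁ A₁' A₂ A₂' : Cn n N}
    (hs₁ : ∀ x ∈ Ω, s₁ x = s₁' x) (hA₁ : ∀ i, ∀ x ∈ Ω, A₁ i x = A₁' i x)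
    (hs₂ : ∀ x ∈ Ω, s₂ x = s₂' x) (hA₂ : ∀ i, ∀ x ∈ Ω, A₂ i x = A₂' i x)
    (h : Dat Ω s₁ A₁ s₂ A₂) : Dat Ω s₁' A₁' s₂' A₂' := by
  refine ⟨orU_congr hΩ hs₁ hA₁ hs₂ hA₂ h.1, fun u hu hu0 => ?_⟩
  obtain ⟨v, hv, hvf, hv0, he⟩ := h.2 u hu fun x hx => by
    rw [lav_congr hΩ hs₁ hA₁ u hx]; exact hu0 x hx
  refine ⟨v, hv, hvf, fun x hx => ?_, ?_⟩
  · rw [← lav_congr hΩ hs₂ hA₂ v hx]; exact hv0 x hx
  · rw [← ea_congr hΩ.measurableSet hs₁ hA₁ u u, ← ea_congr hΩ.measurableSet hs₂ hA₂ v v]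
    exact he

theorem dat_ps {t : ℝ} (ht : t ≠ 0) {Ω : Set (V n)} (hΩ : IsOpen Ω) {s₁ s₂ : MF n}
    {A₁ A₂ : Cn n N} (hs₁ : SmM s₁) (hs₂ : SmM s₂) (hA₁ : SmU A₁) (hA₂ : SmU A₂)
    (h : Dat Ω s₁ A₁ s₂ A₂) :
    Dat (ps t ⁻¹' Ω) (rs t s₁) (rA t A₁) (rs t s₂) (rA t A₂) := by
  refine ⟨orU_ps ht hΩ hs₁ hs₂ hA₁ hA₂ h.1, fun u hu hu0 => ?_⟩
  have hmem : ∀ x ∈ Ω, ph t x ∈ ps t ⁻¹' Ω := by
    intro x hx
    show ps t (ph t x) ∈ Ω
    rw [ps_ph ht]; exact hx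
  obtain ⟨v, hv, hvf, hv0, he⟩ := h.2 (fun x => u (ph t x)) (hu.comp (contDiff_ph t))
    fun x hx => by
      have e := lav_ph ht hs₁ hA₁ hu x
      rw [hu0 _ (hmem x hx), smul_zero] at e
      exact e
  have hvv : (fun x => v (ps t (ph t x))) = v := by
    funext x; rw [ps_ph ht]
  have hvc : ContDiff ℝ ∞ (fun y => v (ps t y)) := hv.comp (contDiff_ps t)
  refine ⟨fun y => v (ps t y), hvc, fun y hy => ?_, fun y hy => ?_, ?_⟩
  · have e1 := (hm (n := n) t ht).preimage_frontier Ω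
    have e3 : (hm (n := n) t ht) ⁻¹' Ω = ps t ⁻¹' Ω := rfl
    rw [e3] at e1
    rw [← e1] at hy
    have h1 := hvf (ps t y) hy
    simp only at h1 ⊢
    rw [h1, ph_ps ht]
  · have e := lav_ph ht hs₂ hA₂ hvc (ps t y)
    rw [hvv, hv0 _ hy, ph_ps ht] at e
    have h2 : (((t⁻¹ : ℝ) : ℂ) ^ 2) ≠ 0 := by
      refine pow_ne_zero 2 ?_
      exact_mod_cast inv_ne_zero ht
    exact (smul_eq_zero.1 e.symm).resolve_left h2
  · rw [ea_ph ht hΩ.measurableSet s₂ A₂ hvc hvc, ea_ph ht hΩ.measurableSet s₁ A₁ hu hu, hvv, he]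

/-- **Row K_TOP.** -/
theorem ktop : K.RowTOP := by
  intro hDAT hF n N hn hN ρ hρ
  obtain ⟨t, ht1, ρ', hρ', hoff, hpos, hz⟩ := exists_dom_bls hρ
  have ht0 : 0 < t := by linarith
  obtain ⟨k, ε, hε, hF⟩ := hF n N hn hN ρ' hρ' hoff
  obtain ⟨B, hB, hχ⟩ := chi_cl442 n k
  obtain ⟨δ0, hδ0, hnorm0⟩ := Vale.Agent.P088.LR.H72.norm0 n k ε hε
  obtain ⟨δs, hδs, hsml⟩ := small_sgm442 n k hε
  have hM : 0 < max 1 t ^ k := by positivity
  refine ⟨k, min (min (δ0 / max 1 t ^ k) (δs / (2 ^ k * (B * max 1 t ^ k))))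
    (ε / (2 ^ k * (B * (t * max 1 t ^ k)))), by positivity,
    fun c g hc hc0 hg hgp hcC hgC A₁ A₂ hA₁ hA₂ hA₁c hA₂c hSD => ?_⟩
  have hOm : Om ρ' = ps t ⁻¹' Om ρ := by
    ext y
    exact hpos y
  have hO : IsOpen (Om ρ) := isOpen_lt continuous_const hρ.sm.continuous
  have hO' : IsOpen (Om ρ') := isOpen_lt continuous_const hρ'.sm.continuous
  have hbd : Bornology.IsBounded (Om ρ) :=
    hρ.bd.subset fun x (hx : 0 < ρ x) => (show 0 ≤ ρ x from hx.le)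
  have hbls : ∀ y, 0 ≤ ρ' y → ∑ j, (y j - 1 / 2) ^ 2 ≤ 1 / 64 := by
    intro y hy
    by_contra hc'
    have h1 := hoff y hc'
    linarith
  have hχρ : ∀ y, 0 ≤ ρ' y → chi442 y = 1 := fun y hy => chi_one442 (hbls y hy)
  have hg' : SmM (rs t g) := fun i j => (hg i j).comp (contDiff_ps t)
  have hgp' : ∀ x, (rs t g x).PosDef := fun x => hgp _
  have hC' : ∀ i j, Cl k δ0 (fun x => rs t g x i j - (1 : Matrix (Fin n) (Fin n) ℝ) i j) := by
    intro i j
    have := cl_ps ((hg i j).sub contDiff_const) ht0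
      (Vale.Agent.P088.LR.H72.cl_mono (hgC i j) ((min_le_left _ _).trans (min_le_left _ _)))
    rwa [mul_div_cancel₀ _ hM.ne'] at this
  -- the cut-off conformal factor
  obtain ⟨c', hc'e⟩ : ∃ c' : V n → ℝ, c' = fun y => 1 + chi442 y * (c (ps t y) - 1) := ⟨_, rfl⟩
  have hcps : ContDiff ℝ ∞ (fun y => c (ps t y) - 1) :=
    (hc.comp (contDiff_ps t)).sub contDiff_const
  have hc's : ContDiff ℝ ∞ c' := by
    rw [hc'e]; exact contDiff_const.add (chi_smooth442.mul hcps)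
  have hc'0 : ∀ y, 0 < c' y := by
    intro y
    have h1 := chi_nonneg442 y
    have h2 := chi_le_one442 y
    have h3 := hc0 (ps t y)
    have h4 : c' y = (1 - chi442 y) + chi442 y * c (ps t y) := by rw [hc'e]; ring
    rw [h4]
    rcases h2.lt_or_eq with h5 | h5
    · have := mul_nonneg h1 h3.le
      linarith
    · rw [h5]; linarith
  have hc'1 : ∀ y ∉ bal n, c' y = 1 := by
    intro y hy
    rw [hc'e]
    show 1 + chi442 y * (c (ps t y) - 1) = 1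
    rw [chi_zero442 hy]; ring
  have hc'on : ∀ y, 0 ≤ ρ' y → c' y = c (ps t y) := by
    intro y hy
    rw [hc'e]
    show 1 + chi442 y * (c (ps t y) - 1) = _
    rw [hχρ y hy]; ring
  have hfin : 2 ^ k * (B * (max 1 t ^ k * (δs / (2 ^ k * (B * max 1 t ^ k))))) = δs := by
    field_simp
  have hfin2 : 2 ^ k * (B * (t * (max 1 t ^ k * (ε / (2 ^ k * (B * (t * max 1 t ^ k))))))) = ε := by
    field_simp
  have hc'c : Cl k δs (fun y => c' y - 1) := by
    have h1 := cl_mul442 chi_smooth442 hcps hχ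
      (cl_ps (hc.sub contDiff_const) ht0
        (Vale.Agent.P088.LR.H72.cl_mono hcC ((min_le_left _ _).trans (min_le_right _ _))))
    rw [hfin] at h1
    have h2 : (fun y => c' y - 1) = fun y => chi442 y * (c (ps t y) - 1) := by
      funext y
      rw [hc'e]
      show 1 + chi442 y * (c (ps t y) - 1) - 1 = _
      ring
    rw [h2]; exact h1
  have hσ1 : ∀ x ∉ bal n, sgm442 c' x = 1 := by
    intro x hx
    rw [sgm442, hc'1 x hx, one_pow, Real.sqrt_one, inv_one, one_mul]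
  have hσ1c : ∀ i j, Cl k ε (fun x => sc (sgm442 c') x i j - dl i j) := by
    intro i j
    have h1 := hsml c' hc's hc'c
    have h2 : (fun x => sc (sgm442 c') x i j - dl i j)
        = fun x => (sgm442 c' x - 1) * (1 : Matrix (Fin n) (Fin n) ℝ) i j := by
      funext x
      simp only [sc, Matrix.smul_apply, smul_eq_mul, dl]
      ring
    rw [h2]
    by_cases hij : i = j
    · subst hij
      simpa using h1
    · have h3 : (fun x : V n => (sgm442 c' x - 1) * (1 : Matrix (Fin n) (Fin n) ℝ) i j)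
          = fun _ => (0 : ℝ) := by
        funext x
        rw [Matrix.one_apply_ne hij, mul_zero]
      rw [h3]
      intro l hl x
      have h4 : iteratedFDeriv ℝ l (fun _ : V n => (0 : ℝ)) x = 0 := by
        have := iteratedFDeriv_fun_zero (𝕜 := ℝ) (E := V n) (F := ℝ) (n := l)
        exact congrFun this x
      rw [h4, norm_zero]
      exact hε.le
  -- the connections
  have hcl : ∀ A : Cn n N, SmU A → (∀ i, ClC k (min (min (δ0 / max 1 t ^ k)
      (δs / (2 ^ k * (B * max 1 t ^ k)))) (ε / (2 ^ k * (B * (t * max 1 t ^ k))))) (A i)) →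
      ∀ i, ClC k ε (cA t A i) := by
    intro A hA hcc i
    have h1 : ClC k (ε / (2 ^ k * (B * (t * max 1 t ^ k)))) (A i) :=
      fun a b => Vale.Agent.P088.LR.H72.cl_mono (hcc i a b) (min_le_right _ _)
    have h2 := cA_cl hA ht0 hχ h1
    rwa [hfin2] at h2
  have hcAon : ∀ A : Cn n N, ∀ i, ∀ y, 0 ≤ ρ' y → cA t A i y = rA t A i y := by
    intro A i y hy
    show ((chi442 y : ℝ) : ℂ) • rA t A i y = _
    rw [hχρ y hy, Complex.ofReal_one, one_smul]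
  have hcA0 : ∀ i, ∀ y ∉ bal n, cA t A₁ i y = 0 := by
    intro i y hy
    show ((chi442 y : ℝ) : ℂ) • rA t A₁ i y = 0
    rw [chi_zero442 hy, Complex.ofReal_zero, zero_smul]
  -- the data
  have h1M : SmM (sc c : MF n) := smM_sc442 hc
  have hdat : Dat (Om ρ) (sg (sc c)) A₁ (sg g) A₂ :=
    hDAT (Om ρ) hO hbd (sc c) g h1M hg (posDef_sc442 hc0) hgp A₁ A₂ hA₁ hA₂ hSD
  have hdat' : Dat (Om ρ') (sc (sgm442 c')) (cA t A₁) (sg (rs t g)) (cA t A₂) := by
    have h1 := dat_ps ht0.ne' hO (H442.smM_sg442 h1M (posDef_sc442 hc0)) (H442.smM_sg442 hg hgp)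
      hA₁ hA₂ hdat
    rw [← hOm] at h1
    refine dat_congr hO' (fun y hy => ?_) (fun i y hy => (hcAon A₁ i y (le_of_lt hy)).symm)
      (fun y hy => rfl) (fun i y hy => (hcAon A₂ i y (le_of_lt hy)).symm) h1
    have hy' : 0 < ρ' y := hy
    rw [sg_sc442 hc0]
    show sgm442 c (ps t y) • (1 : Matrix (Fin n) (Fin n) ℝ) = sgm442 c' y • 1
    unfold sgm442
    rw [hc'on y hy'.le]
  obtain ⟨Φ, Ψ, U, hΦ, hΨ, h1, h2, h3, h4, h5, h6, hU, hUu, hU1, hUg⟩ := hF (sgm442 c')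
    ⟨sgm_smooth442 hc's hc'0, sgm_pos442 hc'0⟩ hσ1 (sg (rs t g))
    (H442.smM_sg442 hg' hgp') (Vale.Agent.P088.H607.posDef_sg607 hgp') (cA t A₁) (cA t A₂)
    (smU_cA hA₁ t) (smU_cA hA₂ t) hcA0
    ⟨hσ1c, hnorm0 (rs t g) hg' hC', hcl A₁ hA₁ hA₁c, hcl A₂ hA₂ hA₂c⟩ hdat'
  -- the metric
  have hΦnn : ∀ y, 0 ≤ ρ' y → 0 ≤ ρ' (Φ y) := by
    intro y hy
    rcases hy.lt_or_eq with h | h
    · exact ((h4 y).2 h).le
    · rw [h3 y h.symm]; exact hy
  have hmet : ∀ y, 0 ≤ ρ' y → rs t g y = c (ps t (Φ y)) • ((Jm Φ y)ᵀ * Jm Φ y) := by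
    intro y hy
    rw [← hc'on _ (hΦnn y hy)]
    have h7 := h6 y hy
    rw [← sg_sc442 hc'0] at h7
    obtain ⟨m, rfl⟩ : ∃ m, n = m + 3 := ⟨n - 3, by omega⟩
    exact H695.iso_mat2 (Jm Φ y) (rs t g y) (hc'0 _) (h5 y) (hgp' y).det_pos h7
  have hρz : ∀ x, ρ x = 0 → ρ' (ph t x) = 0 := by
    intro x hx
    exact (hz _).2 (by rw [ps_ph ht0.ne']; exact hx)
  have hρp : ∀ x, 0 < ρ x → 0 < ρ' (ph t x) := by
    intro x hx
    exact (hpos _).2 (by rw [ps_ph ht0.ne']; exact hx)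
  refine ⟨fun x => ps t (Φ (ph t x)), fun x => ps t (Ψ (ph t x)), fun x => U (ph t x),
    (contDiff_ps t).comp (hΦ.comp (contDiff_ph t)), (contDiff_ps t).comp (hΨ.comp (contDiff_ph t)),
    ?_, ?_, ?_, ?_, ?_, ?_, ⟨?_, ?_, ?_⟩, ?_⟩
  · intro x
    show ps t (Ψ (ph t (ps t (Φ (ph t x))))) = x
    rw [ph_ps ht0.ne', h1, ps_ph ht0.ne']
  · intro x
    show ps t (Φ (ph t (ps t (Ψ (ph t x))))) = x
    rw [ph_ps ht0.ne', h2, ps_ph ht0.ne']
  · intro x hx
    show ps t (Φ (ph t x)) = x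
    rw [h3 (ph t x) (hρz x hx), ps_ph ht0.ne']
  · intro x
    show 0 < ρ (ps t (Φ (ph t x))) ↔ _
    rw [← hpos, h4, hpos, ps_ph ht0.ne']
  · intro x
    rw [Jm_scale hΦ ht0.ne']
    exact h5 _
  · intro x hx
    rw [Jm_scale hΦ ht0.ne']
    have hx' : 0 ≤ ρ' (ph t x) := by
      rcases hx.lt_or_eq with h | h
      · exact (hρp x h).le
      · exact (hρz x h.symm).ge
    have h7 := hmet (ph t x) hx'
    have e : rs t g (ph t x) = g x := by
      show g (ps t (ph t x)) = g x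
      rw [ps_ph ht0.ne']
    rwa [e] at h7
  · intro a b
    exact (hU a b).comp (contDiff_ph t)
  · intro x _
    exact hUu _
  · intro i x hx
    have hy : 0 < ρ' (ph t x) := hρp x hx
    have e1 := hUg i (ph t x) hy
    have e2 : cA t A₂ i (ph t x) = (t : ℂ) • A₂ i x := by
      rw [hcAon A₂ i _ hy.le]
      show (t : ℂ) • A₂ i (ps t (ph t x)) = _
      rw [ps_ph ht0.ne']
    have e3 : pbF Φ (cA t A₁) i (ph t x)
        = (t : ℂ) • pbF (fun x => ps t (Φ (ph t x))) A₁ i x := by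
      unfold pbF
      rw [Finset.smul_sum]
      refine Finset.sum_congr rfl fun j _ => ?_
      rw [hcAon A₁ j _ (hΦnn _ hy.le), Jm_scale hΦ ht0.ne', smul_comm]
      rfl
    have e4 : pdm i U (ph t x) = (t : ℂ) • pdm i (fun x => U (ph t x)) x := by
      ext a b
      simp only [pdm, Matrix.of_apply, Matrix.smul_apply, smul_eq_mul]
      rw [pd_ph i ((hU a b).differentiable (by simp)) t x, Complex.real_smul, ← mul_assoc,
        ← Complex.ofReal_mul, mul_inv_cancel₀ ht0.ne', Complex.ofReal_one, one_mul]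
    rw [e2, e3, e4, Matrix.mul_smul, Matrix.smul_mul, Matrix.mul_smul, ← smul_add] at e1
    exact smul_right_injective _ (by exact_mod_cast ht0.ne' : (t : ℂ) ≠ 0) e1
  · intro x hx
    have h7 : ρ x = 0 := by
      have h8 : 0 ≤ ρ x := closure_minimal (fun y (hy : 0 < ρ y) => (show 0 ≤ ρ y from hy.le))
        (isClosed_le continuous_const hρ.sm.continuous) (frontier_subset_closure hx)
      rw [hO.frontier_eq] at hx
      exact le_antisymm (not_lt.1 fun h => hx.2 h) h8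
    exact hU1 _ (hρz x h7)

end Vale.Agent.P088.H798
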