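import Vale.Agent.P088.H738.G.Defs
import Vale.Agent.P088.H798.KTop
import Vale.Agent.P088.H924.ESc

/-!
# P088, theorem G (joint uniqueness on a smooth domain, the second metric semi-global): scaling,
cut-off and passage from tensors to metrics (row G_TOP)
-/

open MeasureTheory Set
open scoped ContDiff Matrix

noncomputable section

namespace Vale.Agent.P088.H798

open Vale.Agent.P088.LR Vale.Agent.P088.LR.CF Vale.Agent.P088.LR.B Vale.Agent.P088.LR.H925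
  Vale.Agent.P088.LR.H158 Vale.Agent.P088.H639
open Vale.Agent.P088.LR.U
open Vale.Agent.P088.LR.G (DatS)

variable {n N : ℕ}

theorem datS_congr {Ω : Set (V n)} (hΩ : IsOpen Ω) {s₁ s₁' s₂ s₂' : MF n}
    {A₁ A₁' A₂ A₂' : Cn n N}
    (hs₁ : ∀ x ∈ Ω, s₁ x = s₁' x) (hA₁ : ∀ i, ∀ x ∈ Ω, A₁ i x = A₁' i x)
    (hs₂ : ∀ x ∈ Ω, s₂ x = s₂' x) (hA₂ : ∀ i, ∀ x ∈ Ω, A₂ i x = A₂' i x)
    (h : DatS Ω s₁ A₁ s₂ A₂) : DatS Ω s₁' A₁' s₂' A₂' := by
  refine ⟨dat_congr hΩ hs₁ hA₁ hs₂ hA₂ h.1, fun f hf => ?_⟩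
  obtain ⟨u, hu, huf, hu0⟩ := h.2 f hf
  exact ⟨u, hu, huf, fun x hx => by
    rw [← lav_congr hΩ hs₁ hA₁ u hx]; exact hu0 x hx⟩

theorem datS_ps {t : ℝ} (ht : t ≠ 0) {Ω : Set (V n)} (hΩ : IsOpen Ω) {s₁ s₂ : MF n}
    {A₁ A₂ : Cn n N} (hs₁ : SmM s₁) (hs₂ : SmM s₂) (hA₁ : SmU A₁) (hA₂ : SmU A₂)
    (h : DatS Ω s₁ A₁ s₂ A₂) :
    DatS (ps t ⁻¹' Ω) (rs t s₁) (rA t A₁) (rs t s₂) (rA t A₂) := by
  refine ⟨dat_ps ht hΩ hs₁ hs₂ hA₁ hA₂ h.1, fun f hf => ?_⟩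
  obtain ⟨v, hv, hvf, hv0⟩ := h.2 (fun x => f (ph t x)) (hf.comp (contDiff_ph t))
  have hvv : (fun x => v (ps t (ph t x))) = v := by
    funext x; rw [ps_ph ht]
  have hvc : ContDiff ℝ ∞ (fun y => v (ps t y)) := hv.comp (contDiff_ps t)
  refine ⟨fun y => v (ps t y), hvc, fun y hy => ?_, fun y hy => ?_⟩
  · have e1 := (hm (n := n) t ht).preimage_frontier Ω
    have e3 : (hm (n := n) t ht) ⁻¹' Ω = ps t ⁻¹' Ω := rfl
    rw [e3] at e1
    rw [← e1] at hy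
    have h1 := hvf (ps t y) hy
    simp only at h1 ⊢
    rw [h1, ph_ps ht]
  · have e := lav_ph ht hs₁ hA₁ hvc (ps t y)
    rw [hvv, hv0 _ hy, ph_ps ht] at e
    have h2 : (((t⁻¹ : ℝ) : ℂ) ^ 2) ≠ 0 := by
      refine pow_ne_zero 2 ?_
      exact_mod_cast inv_ne_zero ht
    exact (smul_eq_zero.1 e.symm).resolve_left h2

/-- **Row G_TOP.** -/
theorem gtop : G.RowTOP := by
  intro hDAT hF n N hn hN ρ hρ B
  have hn1 : 1 ≤ n := by omega
  by_cases hB0 : 0 < B 0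
  swap
  · refine ⟨0, 1, one_pos, fun c g _ _ hg hgp _ hcl _ _ _ _ _ _ _ _ _ => ?_⟩
    exfalso
    have h1 := hcl ⟨0, hn1⟩ ⟨0, hn1⟩ 0 (Nat.zero_le _) 0
    rw [norm_iteratedFDeriv_zero] at h1
    have h2 : 0 < g 0 ⟨0, hn1⟩ ⟨0, hn1⟩ := (hgp 0).diag_pos
    rw [Real.norm_eq_abs, abs_of_pos h2] at h1
    linarith
  obtain ⟨t, ht1, ρ', hρ', hoff, hpos, hz⟩ := exists_dom_bls hρ
  have ht0 : 0 < t := by linarith
  -- the constants of the metric
  obtain ⟨B₁, hB₁e⟩ : ∃ B₁ : ℕ → ℝ, B₁ = fun l =>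
    max 1 t ^ l * ∑ i ∈ Finset.range (l + 1), |B i| := ⟨_, rfl⟩
  have hsum : ∀ l, ∀ q ≤ l, |B q| ≤ ∑ i ∈ Finset.range (l + 1), |B i| := fun l q hq =>
    Finset.single_le_sum (f := fun i => |B i|) (fun i _ => abs_nonneg _)
      (Finset.mem_range.2 (by omega))
  have hBB : ∀ l, B 0 ≤ B₁ l := by
    intro l
    have hmt : (1 : ℝ) ≤ max 1 t ^ l := one_le_pow₀ (le_max_left _ _)
    have h1 := hsum l 0 (Nat.zero_le _)
    rw [hB₁e]
    exact (le_abs_self _).trans (h1.trans (le_mul_of_one_le_left ((abs_nonneg _).trans h1) hmt))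
  have hB₁ : ∀ l, 0 < B₁ l := fun l => hB0.trans_le (hBB l)
  choose Cψ hCψ kψ using fun l =>
    H292.BM.bdd_met n l (B₁ l) (hB₁ l) (((n : ℝ) - 2) / (2 * n))
  choose Ct hCt kt using fun l => H292.BM.bdd_met n l (B₁ l) (hB₁ l) (1 / (n : ℝ))
  obtain ⟨Cm, hCm0, km⟩ := H188.DM.met_sm n (hB₁ 0)
  obtain ⟨k, ε, hε, hF⟩ := hF n N hn hN ρ' hρ' hoff (fun l => Cψ l + Ct l)
  obtain ⟨B', hB, hχ⟩ := chi_cl442 n k
  obtain ⟨δs, hδs, hsml⟩ := small_sgm442 n k hε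
  have hM : 0 < max 1 t ^ k := by positivity
  refine ⟨k, min (min (ε / (Cm + 1)) (δs / (2 ^ k * (B' * max 1 t ^ k))))
    (ε / (2 ^ k * (B' * (t * max 1 t ^ k)))), by positivity,
    fun c g hc hc0 hg hgp hcC hcl hdet hnr A₁ A₂ hA₁ hA₂ hA₁c hA₂c hSD => ?_⟩
  have hOm : Om ρ' = ps t ⁻¹' Om ρ := by
    ext y
    exact hpos y
  have hO : IsOpen (Om ρ) := isOpen_lt continuous_const hρ.sm.continuous
  have hO' : IsOpen (Om ρ') := isOpen_lt continuous_const hρ'.sm.continuous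
  have hbd : Bornology.IsBounded (Om ρ) :=
    hρ.bd.subset fun x (hx : 0 < ρ x) => (show 0 ≤ ρ x from hx.le)
  have hbls : ∀ y, 0 ≤ ρ' y → ∑ j, (y j - 1 / 2) ^ 2 ≤ 1 / 64 := by
    intro y hy
    by_contra hc'
    have h1 := hoff y hc'
    linarith
  have hχρ : ∀ y, 0 ≤ ρ' y → chi442 y = 1 := fun y hy => chi_one442 (hbls y hy)
  have hg' : SmM (rs t g) := fun i j => (hg i j).comp (contDiff_ps t)
  have hgp' : ∀ x, (rs t g x).PosDef := fun x => hgp _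
  have hg'cl : ∀ l ≤ k, ∀ x, ∀ i j, ∀ q ≤ l,
      ‖iteratedFDeriv ℝ q (fun y => rs t g y i j) x‖ ≤ B₁ l := by
    intro l hl x i j q hq
    rw [hB₁e]
    refine (H188.iter_ps (hg i j) hq ht0 x).trans ?_
    refine mul_le_mul_of_nonneg_left ?_ (by positivity)
    exact (hcl i j q (hq.trans hl) _).trans ((le_abs_self _).trans (hsum l q hq))
  have hNc := H924.ES.nc_met (k := k) (g := rs t g) (ε := ε / (Cm + 1)) hn1 (by positivity)
    (fun l g hg hd x h1 h2 => ⟨(kψ l g hg hd x h1 h2).1, (kψ l g hg hd x h1 h2).2.1⟩)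
    (fun l g hg hd x h1 h2 => (kt l g hg hd x h1 h2).2.2) km hg' hgp' hg'cl
    (fun l _ x => (inv_anti₀ hB0 (hBB l)).trans (hdet _))
    (fun i j x => (hnr i j _).trans ((min_le_left _ _).trans (min_le_left _ _)))
  have hNc' : E.Nc k (fun l => Cψ l + Ct l) ε (sg (rs t g))
      (fun x => (rs t g x).det ^ (((n : ℝ) - 2) / (2 * n)))
      (fun x => (rs t g x).det ^ (1 / (n : ℝ)) • (rs t g x)⁻¹) := by
    refine ⟨hNc.pψ, hNc.st, hNc.sy, hNc.eq, hNc.bψ, hNc.iψ, hNc.bt, fun i j x => ?_⟩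
    refine (hNc.nt i j x).trans ?_
    rw [mul_div_assoc', div_le_iff₀ (by positivity)]
    nlinarith
  -- the cut-off conformal factor
  obtain ⟨c', hc'e⟩ : ∃ c' : V n → ℝ, c' = fun y => 1 + chi442 y * (c (ps t y) - 1) := ⟨_, rfl⟩
  have hcps : ContDiff ℝ ∞ (fun y => c (ps t y) - 1) :=
    (hc.comp (contDiff_ps t)).sub contDiff_const
  have hc's : ContDiff ℝ ∞ c' := by
    rw [hc'e]; exact contDiff_const.add (chi_smooth442.mul hcps)
  have hc'0 : ∀ y, 0 < c' y := by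
    intro y
    have h1 := chi_nonneg442 y
    have h2 := chi_le_one442 y
    have h3 := hc0 (ps t y)
    have h4 : c' y = (1 - chi442 y) + chi442 y * c (ps t y) := by rw [hc'e]; ring
    rw [h4]
    rcases h2.lt_or_eq with h5 | h5
    · have := mul_nonneg h1 h3.le
      linarith
    · rw [h5]; linarith
  have hc'1 : ∀ y ∉ bal n, c' y = 1 := by
    intro y hy
    rw [hc'e]
    show 1 + chi442 y * (c (ps t y) - 1) = 1
    rw [chi_zero442 hy]; ring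
  have hc'on : ∀ y, 0 ≤ ρ' y → c' y = c (ps t y) := by
    intro y hy
    rw [hc'e]
    show 1 + chi442 y * (c (ps t y) - 1) = _
    rw [hχρ y hy]; ring
  have hfin : 2 ^ k * (B' * (max 1 t ^ k * (δs / (2 ^ k * (B' * max 1 t ^ k))))) = δs := by
    field_simp
  have hfin2 : 2 ^ k * (B' * (t * (max 1 t ^ k *
      (ε / (2 ^ k * (B' * (t * max 1 t ^ k))))))) = ε := by
    field_simp
  have hc'c : Cl k δs (fun y => c' y - 1) := by
    have h1 := cl_mul442 chi_smooth442 hcps hχ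
      (cl_ps (hc.sub contDiff_const) ht0
        (Vale.Agent.P088.LR.H72.cl_mono hcC ((min_le_left _ _).trans (min_le_right _ _))))
    rw [hfin] at h1
    have h2 : (fun y => c' y - 1) = fun y => chi442 y * (c (ps t y) - 1) := by
      funext y
      rw [hc'e]
      show 1 + chi442 y * (c (ps t y) - 1) - 1 = _
      ring
    rw [h2]; exact h1
  have hσ1 : ∀ x ∉ bal n, sgm442 c' x = 1 := by
    intro x hx
    rw [sgm442, hc'1 x hx, one_pow, Real.sqrt_one, inv_one, one_mul]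
  have hσc : Cl k ε (fun x => sgm442 c' x - 1) := hsml c' hc's hc'c
  -- the connections
  have hclA : ∀ A : Cn n N, SmU A → (∀ i, ClC k (min (min (ε / (Cm + 1))
      (δs / (2 ^ k * (B' * max 1 t ^ k)))) (ε / (2 ^ k * (B' * (t * max 1 t ^ k))))) (A i)) →
      ∀ i, ClC k ε (cA t A i) := by
    intro A hA hcc i
    have h1 : ClC k (ε / (2 ^ k * (B' * (t * max 1 t ^ k)))) (A i) :=
      fun a b => Vale.Agent.P088.LR.H72.cl_mono (hcc i a b) (min_le_right _ _)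
    have h2 := cA_cl hA ht0 hχ h1
    rwa [hfin2] at h2
  have hcAon : ∀ A : Cn n N, ∀ i, ∀ y, 0 ≤ ρ' y → cA t A i y = rA t A i y := by
    intro A i y hy
    show ((chi442 y : ℝ) : ℂ) • rA t A i y = _
    rw [hχρ y hy, Complex.ofReal_one, one_smul]
  have hcA0 : ∀ i, ∀ y ∉ bal n, cA t A₁ i y = 0 := by
    intro i y hy
    show ((chi442 y : ℝ) : ℂ) • rA t A₁ i y = 0
    rw [chi_zero442 hy, Complex.ofReal_zero, zero_smul]
  -- the data
  have h1M : SmM (sc c : MF n) := smM_sc442 hc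
  have hdat : DatS (Om ρ) (sg (sc c)) A₁ (sg g) A₂ :=
    hDAT (Om ρ) hO hbd (sc c) g h1M hg (posDef_sc442 hc0) hgp A₁ A₂ hA₁ hA₂ hSD
  have hdat' : DatS (Om ρ') (sc (sgm442 c')) (cA t A₁) (sg (rs t g)) (cA t A₂) := by
    have h1 := datS_ps ht0.ne' hO (H442.smM_sg442 h1M (posDef_sc442 hc0))
      (H442.smM_sg442 hg hgp) hA₁ hA₂ hdat
    rw [← hOm] at h1
    refine datS_congr hO' (fun y hy => ?_) (fun i y hy => (hcAon A₁ i y (le_of_lt hy)).symm)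
      (fun y hy => rfl) (fun i y hy => (hcAon A₂ i y (le_of_lt hy)).symm) h1
    have hy' : 0 < ρ' y := hy
    rw [sg_sc442 hc0]
    show sgm442 c (ps t y) • (1 : Matrix (Fin n) (Fin n) ℝ) = sgm442 c' y • 1
    unfold sgm442
    rw [hc'on y hy'.le]
  obtain ⟨Φ, Ψ, U, hΦ, hΨ, h1, h2, h3, h4, h5, h6, hU, hUu, hU1, hUg⟩ := hF (sgm442 c')
    ⟨sgm_smooth442 hc's hc'0, sgm_pos442 hc'0⟩ hσ1 hσc _ _ _ hNc' (cA t A₁) (cA t A₂)
    (smU_cA hA₁ t) (smU_cA hA₂ t) hcA0 (hclA A₁ hA₁ hA₁c) (hclA A₂ hA₂ hA₂c) hdat'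
  -- the metric
  have hΦnn : ∀ y, 0 ≤ ρ' y → 0 ≤ ρ' (Φ y) := by
    intro y hy
    rcases hy.lt_or_eq with h | h
    · exact ((h4 y).2 h).le
    · rw [h3 y h.symm]; exact hy
  have hmet : ∀ y, 0 ≤ ρ' y → rs t g y = c (ps t (Φ y)) • ((Jm Φ y)ᵀ * Jm Φ y) := by
    intro y hy
    rw [← hc'on _ (hΦnn y hy)]
    have h7 := h6 y hy
    rw [← sg_sc442 hc'0] at h7
    obtain ⟨m, rfl⟩ : ∃ m, n = m + 3 := ⟨n - 3, by omega⟩
    exact H695.iso_mat2 (Jm Φ y) (rs t g y) (hc'0 _) (h5 y) (hgp' y).det_pos h7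
  have hρz : ∀ x, ρ x = 0 → ρ' (ph t x) = 0 := by
    intro x hx
    exact (hz _).2 (by rw [ps_ph ht0.ne']; exact hx)
  have hρp : ∀ x, 0 < ρ x → 0 < ρ' (ph t x) := by
    intro x hx
    exact (hpos _).2 (by rw [ps_ph ht0.ne']; exact hx)
  refine ⟨fun x => ps t (Φ (ph t x)), fun x => ps t (Ψ (ph t x)), fun x => U (ph t x),
    (contDiff_ps t).comp (hΦ.comp (contDiff_ph t)), (contDiff_ps t).comp (hΨ.comp (contDiff_ph t)),
    ?_, ?_, ?_, ?_, ?_, ?_, ⟨?_, ?_, ?_⟩, ?_⟩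
  · intro x
    show ps t (Ψ (ph t (ps t (Φ (ph t x))))) = x
    rw [ph_ps ht0.ne', h1, ps_ph ht0.ne']
  · intro x
    show ps t (Φ (ph t (ps t (Ψ (ph t x))))) = x
    rw [ph_ps ht0.ne', h2, ps_ph ht0.ne']
  · intro x hx
    show ps t (Φ (ph t x)) = x
    rw [h3 (ph t x) (hρz x hx), ps_ph ht0.ne']
  · intro x
    show 0 < ρ (ps t (Φ (ph t x))) ↔ _
    rw [← hpos, h4, hpos, ps_ph ht0.ne']
  · intro x
    rw [Jm_scale hΦ ht0.ne']
    exact h5 _
  · intro x hx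
    rw [Jm_scale hΦ ht0.ne']
    have hx' : 0 ≤ ρ' (ph t x) := by
      rcases hx.lt_or_eq with h | h
      · exact (hρp x h).le
      · exact (hρz x h.symm).ge
    have h7 := hmet (ph t x) hx'
    have e : rs t g (ph t x) = g x := by
      show g (ps t (ph t x)) = g x
      rw [ps_ph ht0.ne']
    rwa [e] at h7
  · intro a b
    exact (hU a b).comp (contDiff_ph t)
  · intro x _
    exact hUu _
  · intro i x hx
    have hy : 0 < ρ' (ph t x) := hρp x hx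
    have e1 := hUg i (ph t x) hy
    have e2 : cA t A₂ i (ph t x) = (t : ℂ) • A₂ i x := by
      rw [hcAon A₂ i _ hy.le]
      show (t : ℂ) • A₂ i (ps t (ph t x)) = _
      rw [ps_ph ht0.ne']
    have e3 : pbF Φ (cA t A₁) i (ph t x)
        = (t : ℂ) • pbF (fun x => ps t (Φ (ph t x))) A₁ i x := by
      unfold pbF
      rw [Finset.smul_sum]
      refine Finset.sum_congr rfl fun j _ => ?_
      rw [hcAon A₁ j _ (hΦnn _ hy.le), Jm_scale hΦ ht0.ne', smul_comm]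
      rfl
    have e4 : pdm i U (ph t x) = (t : ℂ) • pdm i (fun x => U (ph t x)) x := by
      ext a b
      simp only [pdm, Matrix.of_apply, Matrix.smul_apply, smul_eq_mul]
      rw [pd_ph i ((hU a b).differentiable (by simp)) t x, Complex.real_smul, ← mul_assoc,
        ← Complex.ofReal_mul, mul_inv_cancel₀ ht0.ne', Complex.ofReal_one, one_mul]
    rw [e2, e3, e4, Matrix.mul_smul, Matrix.smul_mul, Matrix.mul_smul, ← smul_add] at e1
    exact smul_right_injective _ (by exact_mod_cast ht0.ne' : (t : ℂ) ≠ 0) e1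
  · intro x hx
    have h7 : ρ x = 0 := by
      have h8 : 0 ≤ ρ x := closure_minimal (fun y (hy : 0 < ρ y) => (show 0 ≤ ρ y from hy.le))
        (isClosed_le continuous_const hρ.sm.continuous) (frontier_subset_closure hx)
      rw [hO.frontier_eq] at hx
      exact le_antisymm (not_lt.1 fun h => hx.2 h) h8
    exact hU1 _ (hρz x h7)

end Vale.Agent.P088.H798
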